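import Crest.Agent.R345.Main

/-! From two flat families on ten levels to one channel on twenty-one levels. -/

set_option autoImplicit false
open Matrix Crest.Quantum
open scoped MatrixOrder

namespace Crest.Agent.R345

lemma exists_complement {n : Type*} [Fintype n] [DecidableEq n] (Q : Matrix n n ℝ)
    (hQ : Qᵀ = Q) : ∃ (c : ℝ) (B : Matrix n n ℝ), c ≠ 0 ∧ (c * c) • Q + Bᵀ * B = 1 := by
  set N : ℝ := ∑ i, ∑ j, |Q i j| with hN
  have hN0 : 0 ≤ N := Finset.sum_nonneg fun i _ => Finset.sum_nonneg fun j _ => abs_nonneg _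
  set c : ℝ := 1 / (N + 1) with hc
  have hc0 : 0 < c := by positivity
  have hcN : c * c * N ≤ 1 := by
    have h1 : c * (N + 1) = 1 := by rw [hc]; field_simp
    nlinarith [mul_pos hc0 hc0]
  have hpsd : (1 - (c * c) • Q).PosSemidef := by
    refine Matrix.PosSemidef.of_dotProduct_mulVec_nonneg ?_ fun x => ?_
    · ext i j
      have := congrFun (congrFun hQ i) j
      simp only [Matrix.transpose_apply] at this
      simp [Matrix.one_apply, this, eq_comm]
    · set r : ℝ := ∑ i, x i * x i with hr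
      have hr0 : 0 ≤ r := Finset.sum_nonneg fun i _ => mul_self_nonneg _
      have hxi : ∀ i, x i * x i ≤ r := fun i =>
        Finset.single_le_sum (f := fun i => x i * x i) (fun i _ => mul_self_nonneg _)
          (Finset.mem_univ i)
      have h1 : x ⬝ᵥ Q *ᵥ x ≤ N * r := by
        simp only [dotProduct, Matrix.mulVec, Finset.mul_sum, hN, Finset.sum_mul]
        refine Finset.sum_le_sum fun i _ => Finset.sum_le_sum fun j _ => ?_
        have h2 : |x i * x j| ≤ r := by
          rw [abs_le]; constructor <;> nlinarith [hxi i, hxi j, mul_self_nonneg (x i + x j),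
            mul_self_nonneg (x i - x j)]
        calc x i * (Q i j * x j) = Q i j * (x i * x j) := by ring
          _ ≤ |Q i j * (x i * x j)| := le_abs_self _
          _ = |Q i j| * |x i * x j| := abs_mul _ _
          _ ≤ |Q i j| * r := mul_le_mul_of_nonneg_left h2 (abs_nonneg _)
      have h3 : x ⬝ᵥ x = r := rfl
      simp only [star_trivial, Matrix.sub_mulVec, Matrix.one_mulVec, Matrix.smul_mulVec,
        dotProduct_sub, dotProduct_smul, smul_eq_mul, h3]
      nlinarith [mul_le_mul_of_nonneg_left h1 (mul_pos hc0 hc0).le,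
        mul_le_mul_of_nonneg_right hcN hr0]
  obtain ⟨B, hB⟩ := CStarAlgebra.nonneg_iff_eq_star_mul_self.mp hpsd.nonneg
  refine ⟨c, B, hc0.ne', ?_⟩
  have : star B = Bᵀ := by ext i j; simp [Matrix.star_apply]
  rw [← this, ← hB]
  abel

def io1 (i : Fin 10) : Fin 21 := ⟨i, by omega⟩
def io2 (i : Fin 10) : Fin 21 := ⟨i + 10, by omega⟩
def Em (ι : Fin 10 → Fin 21) : Matrix (Fin 21) (Fin 10) ℝ :=
  Matrix.of fun a i => if a = ι i then 1 else 0
def Dm (B : Matrix (Fin 21) (Fin 21) ℝ) (j : Fin 21) : Matrix (Fin 21) (Fin 21) ℝ :=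
  Matrix.of fun a i => if a = 20 then B j i else 0

lemma Em_t_mul {n : Type*} (ι : Fin 10 → Fin 21) (M : Matrix (Fin 21) n ℝ) (i : Fin 10) (j : n) :
    ((Em ι)ᵀ * M) i j = M (ι i) j := by
  simp [Matrix.mul_apply, Em]

lemma mul_Em {n : Type*} (ι : Fin 10 → Fin 21) (M : Matrix n (Fin 21) ℝ) (i : n) (j : Fin 10) :
    (M * Em ι) i j = M i (ι j) := by
  simp [Matrix.mul_apply, Em]

lemma E11 : (Em io1)ᵀ * Em io1 = 1 := by
  ext i j; rw [Em_t_mul]; simp [Em, io1, Matrix.one_apply, Fin.ext_iff]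
lemma E22 : (Em io2)ᵀ * Em io2 = 1 := by
  ext i j; rw [Em_t_mul]; simp [Em, io2, Matrix.one_apply, Fin.ext_iff]
lemma E12 : (Em io1)ᵀ * Em io2 = 0 := by
  ext i j; rw [Em_t_mul]
  have : (i : ℕ) ≠ j + 10 := by omega
  simp [Em, io1, io2, Fin.ext_iff, this]
lemma E21 : (Em io2)ᵀ * Em io1 = 0 := by
  ext i j; rw [Em_t_mul]
  have : (i : ℕ) + 10 ≠ j := by omega
  simp [Em, io1, io2, Fin.ext_iff, this]
lemma E1D (B : Matrix (Fin 21) (Fin 21) ℝ) (j : Fin 21) : (Em io1)ᵀ * Dm B j = 0 := by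
  ext i k; rw [Em_t_mul]
  have : (i : ℕ) ≠ 20 := by omega
  simp [Dm, io1, Fin.ext_iff, this]
lemma E2D (B : Matrix (Fin 21) (Fin 21) ℝ) (j : Fin 21) : (Em io2)ᵀ * Dm B j = 0 := by
  ext i k; rw [Em_t_mul]
  have : (i : ℕ) ≠ 10 := by omega
  simp [Dm, io2, Fin.ext_iff, this]

lemma flat_Dm (B : Matrix (Fin 21) (Fin 21) ℝ) : Flat (Dm B) := by
  intro a b i j
  simp only [Dm, Matrix.of_apply]
  by_cases ha : a = 20 <;> by_cases hb : b = 20 <;> simp [ha, hb]

lemma sum_Dm (B : Matrix (Fin 21) (Fin 21) ℝ) : ∑ j, (Dm B j)ᵀ * Dm B j = Bᵀ * B := by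
  ext i k
  simp [Matrix.sum_apply, Matrix.mul_apply, Dm]

theorem exists_channel {S1 S2 : Type} [Fintype S1] [Fintype S2]
    (K : S1 → Matrix (Fin 10) (Fin 10) ℝ) (L : S2 → Matrix (Fin 10) (Fin 10) ℝ)
    (hK : Flat K) (hL : Flat L) (hN : NoProd (fun p : S2 × S1 => L p.1 * K p.2))
    (h0 : choiMatrix (kr (fun p : S2 × S1 => L p.1 * K p.2)) ≠ 0) :
    ∃ Θ : Matrix (Fin 21) (Fin 21) ℂ → Matrix (Fin 21) (Fin 21) ℂ,
      IsChannel Θ ∧ IsPPT Θ ∧ ¬ IsEntanglementBreaking (Θ ∘ Θ) := by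
  let W : S1 ⊕ S2 → Matrix (Fin 21) (Fin 21) ℝ :=
    Sum.elim (fun s => Em io2 * (K s * (Em io1)ᵀ)) (fun r => Em io1 * (L r * (Em io2)ᵀ))
  have hW : Flat W := ((hK.mul_right _).mul_left _).sumElim ((hL.mul_right _).mul_left _)
  obtain ⟨c, B, hc, hB⟩ := exists_complement (∑ s, (W s)ᵀ * W s) (by
    simp only [Matrix.transpose_sum, Matrix.transpose_mul, Matrix.transpose_transpose])
  let F : (S1 ⊕ S2) ⊕ Fin 21 → Matrix (Fin 21) (Fin 21) ℝ := Sum.elim (fun s => c • W s) (Dm B)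
  have hF : Flat F := (hW.smul c).sumElim (flat_Dm B)
  refine ⟨kr F, ⟨kr_linear _, kr_cp _, kr_tp _ ?_⟩, hF.isPPT, ?_⟩
  · rw [Fintype.sum_sum_type, ← hB]
    simp only [F, Sum.elim_inl, Sum.elim_inr, sum_Dm, Matrix.transpose_smul, Matrix.smul_mul,
      Matrix.mul_smul, smul_smul, Finset.smul_sum]
  · rw [kr_comp]
    intro hEB
    let G : ((S1 ⊕ S2) ⊕ Fin 21) × ((S1 ⊕ S2) ⊕ Fin 21) → Matrix (Fin 10) (Fin 10) ℝ :=
      fun p => (Em io1)ᵀ * (F p.1 * F p.2 * Em io1)
    have hG1 : ∀ r s, G (Sum.inl (Sum.inr r), Sum.inl (Sum.inl s)) = (c * c) • (L r * K s) := by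
      intro r s
      simp only [G, F, W, Sum.elim_inl, Sum.elim_inr, Matrix.smul_mul, Matrix.mul_smul, smul_smul,
        Matrix.mul_assoc, E11, Matrix.mul_one]
      simp only [← Matrix.mul_assoc, E11, Matrix.one_mul]
      rw [Matrix.mul_assoc (L r), E22, Matrix.mul_one]
    have hG : ∀ p, G p = 0 ∨ ∃ r s, G p = (c * c) • (L r * K s) := by
      rintro ⟨(s | r) | j, y⟩
      · left
        simp only [G, F, W, Sum.elim_inl, Matrix.smul_mul, Matrix.mul_smul, ← Matrix.mul_assoc,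
          E12, Matrix.zero_mul, smul_zero]
      · rcases y with (s | r') | j
        · exact Or.inr ⟨r, s, hG1 r s⟩
        · left
          simp only [G, F, W, Sum.elim_inl, Sum.elim_inr, Matrix.smul_mul, Matrix.mul_smul,
            Matrix.mul_assoc, E21, Matrix.mul_zero, smul_zero]
        · left
          simp only [G, F, W, Sum.elim_inl, Sum.elim_inr, Matrix.smul_mul, Matrix.mul_smul,
            Matrix.mul_assoc]
          rw [← Matrix.mul_assoc (Em io2)ᵀ, E2D]
          simp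
      · left
        simp only [G, F, Sum.elim_inr, ← Matrix.mul_assoc, E1D, Matrix.zero_mul]
    have hNG : NoProd G := by
      intro u v h
      refine hN u v fun t ht => h t fun p => ?_
      rcases hG p with h1 | ⟨r, s, h1⟩
      · simp [h1]
      · have := ht (r, s)
        simp only [h1, Matrix.smul_apply, smul_eq_mul] at this ⊢
        calc ∑ i, ∑ a, t i a * (c * c * (L r * K s) a i)
            = c * c * ∑ i, ∑ a, t i a * (L r * K s) a i := by
              simp only [Finset.mul_sum]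
              exact Finset.sum_congr rfl fun i _ => Finset.sum_congr rfl fun a _ => by ring
          _ = 0 := by rw [this, mul_zero]
    have hsep := eb_compress hEB io1
    have hC : (Matrix.of fun p q : Fin 10 × Fin 10 =>
        kr (fun p : ((S1 ⊕ S2) ⊕ Fin 21) × ((S1 ⊕ S2) ⊕ Fin 21) => F p.1 * F p.2)
          (Matrix.single (io1 p.1) (io1 q.1) 1) (io1 p.2) (io1 q.2)) = choiMatrix (kr G) := by
      ext p q
      have := choi_kr (fun p : ((S1 ⊕ S2) ⊕ Fin 21) × ((S1 ⊕ S2) ⊕ Fin 21) => F p.1 * F p.2)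
        (io1 p.1, io1 p.2) (io1 q.1, io1 q.2)
      rw [choi_kr]
      simp only [G, Em_t_mul, mul_Em]
      exact this
    rw [hC] at hsep
    have hz := hNG.sep_zero (fun t ht => choi_mulVec_eq_zero ht) hsep
    apply h0
    ext p q
    rw [choi_kr]
    have : ∀ (r : S2) (s : S1) (a i : Fin 10), (L r * K s) a i = 0 := by
      intro r s a i
      have := kraus_eq_zero_of_choi G hz (Sum.inl (Sum.inr r), Sum.inl (Sum.inl s)) a i
      rw [hG1] at this
      simpa [hc] using this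
    simp [this]

end Crest.Agent.R345
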