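import Mathlib

/-! A verified general-position checker modulo a prime, and a valuation-ring argument showing
that a system of bilinear equations over `ℂ` has only trivial solutions when it reduces modulo
a prime to a system of products of linear forms in general position. -/

set_option autoImplicit false

namespace Crest.Agent.R345

def dotL {k : Type*} [Field k] : List ℕ → List k → k
  | r0 :: rt, f0 :: ft => (r0 : k) * f0 + dotL rt ft
  | _, _ => 0

def elimT (p r0 s0 : ℕ) : List ℕ → List ℕ → List ℕ
  | rj :: rt, sj :: st => ((r0 * sj + (p - s0 % p) * rj) % p) :: elimT p r0 s0 rt st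
  | _, _ => []

def elimR (p r0 : ℕ) (rt : List ℕ) : List ℕ → List ℕ
  | s0 :: st => elimT p r0 s0 rt st
  | [] => []

def gp (p : ℕ) : ℕ → ℕ → List (List ℕ) → Bool
  | _, 0, _ => true
  | 0, _ + 1, _ => true
  | n + 1, d + 1, rows =>
    if n < d then true else
      match rows with
      | (r0 :: rt) :: rest =>
        (r0 % p != 0) && gp p n (d + 1) rest && gp p n d (rest.map (elimR p r0 rt))
      | _ => false

section
variable {k : Type*} [Field k]

lemma cast_mod_p {p : ℕ} (hp : (p : k) = 0) (x : ℕ) : ((x % p : ℕ) : k) = x := by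
  conv_rhs => rw [← Nat.mod_add_div x p]
  push_cast
  rw [hp]; ring

lemma length_elimT (p r0 s0 : ℕ) : ∀ (rt st : List ℕ) (d : ℕ), rt.length = d → st.length = d →
    (elimT p r0 s0 rt st).length = d
  | [], [], _, h, _ => by simpa [elimT] using h
  | [], _ :: _, _, h1, h2 => by simp at h1 h2; omega
  | _ :: _, [], _, h1, h2 => by simp at h1 h2; omega
  | _ :: rt, _ :: st, 0, h1, _ => by simp at h1
  | _ :: rt, _ :: st, d + 1, h1, h2 => by
    simp only [List.length_cons, Nat.add_right_cancel_iff] at h1 h2
    simp [elimT, length_elimT p r0 s0 rt st d h1 h2]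

lemma dotL_elimT {p : ℕ} (hp0 : 0 < p) (hp : (p : k) = 0) (r0 s0 : ℕ) :
    ∀ (rt st : List ℕ) (ft : List k), rt.length = st.length →
      dotL (elimT p r0 s0 rt st) ft = (r0 : k) * dotL st ft - (s0 : k) * dotL rt ft
  | [], [], _, _ => by simp [elimT, dotL]
  | [], _ :: _, _, h => by simp at h
  | _ :: _, [], _, h => by simp at h
  | _ :: _, _ :: _, [], _ => by simp [elimT, dotL]
  | rj :: rt, sj :: st, f :: ft, h => by
    simp only [List.length_cons, Nat.add_right_cancel_iff] at h
    simp only [elimT, dotL, dotL_elimT hp0 hp r0 s0 rt st ft h, cast_mod_p hp]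
    have : ((p - s0 % p : ℕ) : k) = -(s0 : k) := by
      rw [Nat.cast_sub (Nat.mod_lt _ hp0).le, hp, cast_mod_p hp]; ring
    push_cast [this]
    ring

lemma dotL_eq_zero : ∀ (r : List ℕ) (f : List k), (∀ x ∈ f, x = 0) → dotL r f = 0
  | [], _, _ => by simp [dotL]
  | _ :: _, [], _ => by simp [dotL]
  | r0 :: rt, f0 :: ft, h => by
    have h0 : f0 = 0 := h f0 (by simp)
    simp [dotL, h0, dotL_eq_zero rt ft fun x hx => h x (by simp [hx])]

open Classical in
theorem gp_sound {p : ℕ} (hpr : p.Prime) (hp : (p : k) = 0) :
    ∀ (n d : ℕ) (rows : List (List ℕ)), gp p n d rows = true → rows.length = n →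
      (∀ r ∈ rows, r.length = d) → ∀ f : List k, f.length = d → (∃ x ∈ f, x ≠ 0) →
        rows.countP (fun r => decide (dotL r f = 0)) < d := by
  have : CharP k p := (CharP.charP_iff_prime_eq_zero hpr).2 hp
  intro n
  induction n with
  | zero =>
    intro d rows _ hl _ f hf hx
    have : rows = [] := List.length_eq_zero_iff.1 hl
    subst this
    obtain ⟨x, hx, _⟩ := hx
    have := List.length_pos_of_mem hx
    simp; omega
  | succ n ih =>
    intro d rows hg hl hr f hf hx
    cases d with
    | zero =>
      obtain ⟨x, hx, _⟩ := hx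
      have := List.length_pos_of_mem hx
      omega
    | succ d =>
      by_cases hnd : n < d
      · have := List.countP_le_length (p := fun r => decide (dotL r f = 0)) (l := rows)
        omega
      · match rows, hg, hl, hr with
        | [], _, hl, _ => simp at hl
        | [] :: _, hg, _, _ => simp [gp, hnd] at hg
        | (r0 :: rt) :: rest, hg, hl, hr =>
          simp only [gp, hnd, if_false, Bool.and_eq_true, bne_iff_ne, ne_eq] at hg
          obtain ⟨⟨h0, h1⟩, h2⟩ := hg
          have hl' : rest.length = n := by simpa using hl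
          have hr' : ∀ r ∈ rest, r.length = d + 1 := fun r h => hr r (by simp [h])
          have hrt : rt.length = d := by simpa using hr (r0 :: rt) (by simp)
          have hr0 : (r0 : k) ≠ 0 := by
            rw [Ne, CharP.cast_eq_zero_iff k p]
            exact fun h => h0 (Nat.mod_eq_zero_of_dvd h)
          by_cases hz : dotL (r0 :: rt) f = 0
          · match f, hf, hx, hz with
            | [], hf, _, _ => simp at hf
            | f0 :: ft, hf, hx, hz =>
              have hft : ft.length = d := by simpa using hf
              simp only [dotL] at hz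
              have hx' : ∃ x ∈ ft, x ≠ 0 := by
                by_contra hcon
                push Not at hcon
                rw [dotL_eq_zero rt ft hcon, add_zero] at hz
                have hf0 : f0 = 0 := (mul_eq_zero.1 hz).resolve_left hr0
                obtain ⟨x, hx, hx0⟩ := hx
                rcases List.mem_cons.1 hx with h | h
                · exact hx0 (h.trans hf0)
                · exact hx0 (hcon x h)
              have := ih d (rest.map (elimR p r0 rt)) h2 (by simpa using hl') (by
                intro r hr
                obtain ⟨s, hs, rfl⟩ := List.mem_map.1 hr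
                match s, hr' s hs with
                | s0 :: st, hs' =>
                  exact length_elimT p r0 s0 rt st d hrt (by simpa using hs')) ft hft hx'
              rw [List.countP_map] at this
              have e : rest.countP (fun r => decide (dotL r (f0 :: ft) = 0)) =
                  rest.countP ((fun r => decide (dotL r ft = 0)) ∘ elimR p r0 rt) := by
                refine List.countP_congr fun s hs => ?_
                match s, hr' s hs with
                | s0 :: st, hs' =>
                  have hst : rt.length = st.length := by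
                    rw [hrt]; simpa using hs'.symm
                  simp only [Function.comp, elimR, decide_eq_true_eq,
                    dotL_elimT hpr.pos hp r0 s0 rt st ft hst, dotL]
                  have : (r0 : k) * dotL st ft - (s0 : k) * dotL rt ft =
                      r0 * (s0 * f0 + dotL st ft) := by
                    linear_combination (-(s0 : k)) * hz
                  rw [this, mul_eq_zero]
                  simp only [hr0, false_or]
              rw [List.countP_cons, e]
              split_ifs <;> omega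
          · have := ih (d + 1) rest h1 hl' hr' f hf hx
            rw [List.countP_cons]
            simp [hz, this]

lemma dotL_ofFn : ∀ {d : ℕ} (r : Fin d → ℕ) (f : Fin d → k),
    dotL (List.ofFn r) (List.ofFn f) = ∑ i, (r i : k) * f i
  | 0, _, _ => by simp [dotL]
  | d + 1, r, f => by
    simp only [List.ofFn_succ, dotL, Fin.sum_univ_succ, dotL_ofFn]

/-- the rows of a table as a list of lists -/
def rowsOf {N d : ℕ} (X : Fin N → Fin d → ℕ) : List (List ℕ) :=
  (List.finRange N).map fun a => List.ofFn (X a)

open Classical in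
lemma gp_count {p : ℕ} (hpr : p.Prime) (hp : (p : k) = 0) {N d : ℕ} (X : Fin N → Fin d → ℕ)
    (h : gp p N d (rowsOf X) = true) (f : Fin d → k) (hf : f ≠ 0) :
    (List.finRange N).countP (fun a => decide (∑ i, (X a i : k) * f i = 0)) < d := by
  have := gp_sound hpr hp N d (rowsOf X) h (by simp [rowsOf]) (by simp [rowsOf])
    (List.ofFn f) (by simp) (by
      obtain ⟨i, hi⟩ := Function.ne_iff.1 hf
      exact ⟨f i, by simp, hi⟩)
  rw [rowsOf, List.countP_map] at this
  simpa [Function.comp_def, dotL_ofFn] using this

lemma field_key {p : ℕ} (hpr : p.Prime) (hp : (p : k) = 0) {N d e : ℕ} (X : Fin N → Fin d → ℕ)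
    (Y : Fin N → Fin e → ℕ) (hX : gp p N d (rowsOf X) = true) (hY : gp p N e (rowsOf Y) = true)
    (hN : d + e ≤ N + 1) (f : Fin d → k) (g : Fin e → k)
    (h : ∀ a, (∑ i, (X a i : k) * f i) * (∑ j, (Y a j : k) * g j) = 0) : f = 0 ∨ g = 0 := by
  classical
  by_contra hcon
  push Not at hcon
  have h1 := gp_count hpr hp X hX f hcon.1
  have h2 := gp_count hpr hp Y hY g hcon.2
  have h3 := List.length_eq_countP_add_countP
    (fun a => decide (∑ i, (X a i : k) * f i = 0)) (l := List.finRange N)
  have h4 : (List.finRange N).countP (fun a => decide ¬ (decide (∑ i, (X a i : k) * f i = 0) = true))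
      ≤ (List.finRange N).countP (fun a => decide (∑ j, (Y a j : k) * g j = 0)) := by
    refine List.countP_mono_left fun a _ ha => ?_
    have ha' : ¬ (∑ i, (X a i : k) * f i = 0) := by simpa using ha
    simpa using (mul_eq_zero.1 (h a)).resolve_left ha'
  simp only [List.length_finRange] at h3
  omega

end

lemma exists_valuationSubring {p : ℕ} (hpr : p.Prime) :
    ∃ B : ValuationSubring ℂ, (p : ℂ) ∈ B.nonunits := by
  let I : Ideal (⊥ : Subring ℂ) := Ideal.span {(p : (⊥ : Subring ℂ))}
  have hI : I ≠ ⊤ := by
    intro h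
    have h1 : (1 : (⊥ : Subring ℂ)) ∈ I := by rw [h]; trivial
    obtain ⟨⟨a, ha⟩, h2⟩ := Ideal.mem_span_singleton'.1 h1
    obtain ⟨z, rfl⟩ := Subring.mem_bot.1 ha
    have h3 : (z : ℂ) * p = 1 := by simpa using congrArg Subtype.val h2
    have h4 : z * (p : ℤ) = 1 := by exact_mod_cast h3
    have h5 : (p : ℤ) ∣ 1 := Dvd.intro_left z h4
    have h6 : p ∣ 1 := by exact_mod_cast h5
    exact hpr.one_lt.ne' (Nat.dvd_one.1 h6)
  obtain ⟨B, _, hB⟩ := Ideal.image_subset_nonunits_valuationSubring I hI
  refine ⟨B, hB ⟨(p : (⊥ : Subring ℂ)), Ideal.subset_span (by simp), by simp⟩⟩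

lemma normalize_vec (B : ValuationSubring ℂ) {d : ℕ} (u : Fin d → ℂ) (hu : u ≠ 0) :
    ∃ (c : ℂ) (u' : Fin d → B), c ≠ 0 ∧ (∀ i, u i = c * u' i) ∧ ∃ i, u' i = 1 := by
  obtain ⟨i0, hi0⟩ := Function.ne_iff.1 hu
  obtain ⟨m, -, hm⟩ := Finset.exists_max_image Finset.univ (fun i => B.valuation (u i))
    ⟨i0, Finset.mem_univ _⟩
  have hm0 : u m ≠ 0 := by
    intro h
    have := hm i0 (Finset.mem_univ _)
    rw [h, map_zero, le_zero_iff, map_eq_zero] at this
    exact hi0 this
  refine ⟨u m, fun i => ⟨u i / u m, ?_⟩, hm0, fun i => ?_, m, ?_⟩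
  · rw [← ValuationSubring.valuation_le_one_iff, map_div₀]
    exact div_le_one_of_le₀ (hm i (Finset.mem_univ _)) zero_le
  · simp only; field_simp
  · ext; simp [hm0]

theorem bilinear_key {p : ℕ} (hpr : p.Prime) {N d e : ℕ} (X : Fin N → Fin d → ℕ)
    (Y : Fin N → Fin e → ℕ) (hX : gp p N d (rowsOf X) = true) (hY : gp p N e (rowsOf Y) = true)
    (hN : d + e ≤ N + 1) (lam : Fin N → Fin d → Fin e → ℤ)
    (hc : ∀ a i j, (p : ℤ) ∣ lam a i j - (X a i : ℤ) * (Y a j : ℤ))
    (u : Fin d → ℂ) (v : Fin e → ℂ)
    (h : ∀ a, ∑ i, ∑ j, (lam a i j : ℂ) * u i * v j = 0) : u = 0 ∨ v = 0 := by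
  by_contra hcon
  push Not at hcon
  obtain ⟨B, hB⟩ := exists_valuationSubring hpr
  obtain ⟨c, u', hc0, hu, i0, hi0⟩ := normalize_vec B u hcon.1
  obtain ⟨c', v', hc0', hv, j0, hj0⟩ := normalize_vec B v hcon.2
  let φ := IsLocalRing.residue B
  have hp : ((p : ℕ) : IsLocalRing.ResidueField B) = 0 := by
    have : φ (p : B) = 0 := by
      rw [IsLocalRing.residue_eq_zero_iff, ← ValuationSubring.coe_mem_nonunits_iff]
      simpa using hB
    simpa using this
  have hB0 : ∀ a, ∑ i, ∑ j, (lam a i j : B) * u' i * v' j = 0 := by
    intro a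
    apply Subtype.val_injective
    have h1 := h a
    simp only [hu, hv] at h1
    have h2 : c * c' * (∑ i, ∑ j, (lam a i j : ℂ) * (u' i : ℂ) * (v' j : ℂ)) = 0 := by
      rw [← h1, Finset.mul_sum]
      refine Finset.sum_congr rfl fun i _ => ?_
      rw [Finset.mul_sum]
      exact Finset.sum_congr rfl fun j _ => by ring
    have h3 := (mul_eq_zero.1 h2).resolve_left (mul_ne_zero hc0 hc0')
    simpa using h3
  have := field_key hpr hp X Y hX hY hN (fun i => φ (u' i)) (fun j => φ (v' j)) (by
    intro a
    have h1 := congrArg φ (hB0 a)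
    simp only [map_sum, map_mul, map_intCast, map_zero] at h1
    rw [← h1, Finset.sum_mul_sum]
    refine Finset.sum_congr rfl fun i _ => Finset.sum_congr rfl fun j _ => ?_
    obtain ⟨z, hz⟩ := hc a i j
    have : lam a i j = (X a i : ℤ) * (Y a j : ℤ) + p * z := by linarith
    rw [this]
    push_cast
    rw [hp]; ring)
  rcases this with h0 | h0
  · have := congrFun h0 i0
    simp [hi0] at this
  · have := congrFun h0 j0
    simp [hj0] at this

end Crest.Agent.R345
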