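import Crest.Agent.R345.Data
import Crest.Agent.R345.GenPos

/-! Finite checks on the numerical data. -/

set_option autoImplicit false

namespace Crest.Agent.R345

def Az (s : Fin 6) (c : Fin 5) (i : Fin 3) : ℤ := ((Adata.getD s []).getD c []).getD i 0
def idx2 (i j : Fin 3) : Fin 10 := (idx2data.getD i []).getD j 0
def idx3 (i j k : Fin 3) : Fin 10 := ((idx3data.getD i []).getD j []).getD k 0
def code2 (μ : Fin 10) : ℕ := code2data.getD μ 0
def code3 (ν : Fin 10) : ℕ := code3data.getD ν 0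
def wt (i : Fin 3) : ℕ := [0, 1, 6].getD i 0
def Xn (a : Fin 15) (μ : Fin 6) : ℕ := (Xdata.getD a []).getD μ 0
def Yn (a : Fin 15) (ν : Fin 10) : ℕ := (Ydata.getD a []).getD ν 0
def mu (a : Fin 15) (n : ℕ) (c : Fin 5) : ℤ := ((mudata.getD a []).getD n []).getD c 0
def pfst (α : Fin 10) : Fin 5 := ([0, 0, 0, 0, 1, 1, 1, 2, 2, 3] : List (Fin 5)).getD α 0
def psnd (α : Fin 10) : Fin 5 := ([1, 2, 3, 4, 2, 3, 4, 3, 4, 4] : List (Fin 5)).getD α 0
def sg (a b : Fin 5) : ℤ := if a < b then 1 else if b < a then -1 else 0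
def eps (a b c d e : Fin 5) : ℤ :=
  sg a b * sg a c * sg a d * sg a e * sg b c * sg b d * sg b e * sg c d * sg c e * sg d e
def P1z (α : Fin 10) (a b : Fin 5) : ℤ :=
  if a = pfst α ∧ b = psnd α then 1 else if a = psnd α ∧ b = pfst α then -1 else 0
def dl (a b : Fin 5) : ℤ := if a = b then 1 else 0

lemma flatZ : ∀ (a b : Fin 5) (i j : Fin 3),
    ∑ s, Az s a i * Az s b j = ∑ s, Az s b i * Az s a j := by decide +kernel

lemma code2_idx2 : ∀ i j, code2 (idx2 i j) = wt i + wt j := by decide +kernel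
lemma code3_idx3 : ∀ i j k, code3 (idx3 i j k) = wt i + wt j + wt k := by decide +kernel
lemma idx2_lt : ∀ i j, (idx2 i j : ℕ) < 6 := by decide +kernel

lemma eps_fact : ∀ a b c d e : Fin 5,
    ∑ α, eps (pfst α) (psnd α) c d e * P1z α a b = eps a b c d e := by decide +kernel

lemma schouten : ∀ a b c d e f : Fin 5, eps a b c d e * dl f 0 =
    eps 0 b c d e * dl f a + eps a 0 c d e * dl f b + eps a b 0 d e * dl f c +
      eps a b c 0 e * dl f d + eps a b c d 0 * dl f e := by decide +kernel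

lemma mu_kill0 : ∀ (a : Fin 15) (s : Fin 6) (n1 n2 : Fin 5), (n1 : ℕ) + n2 ≤ 4 →
    ∑ i, ∑ c, mu a (wt i + (n1 + 6 * n2)) c * Az s c i = 0 := by decide +kernel

lemma wt4 : ∀ i j k l : Fin 3, ∃ n1 n2 : Fin 5, (n1 : ℕ) + n2 ≤ 4 ∧
    wt i + wt j + wt k + wt l = n1 + 6 * n2 := by decide +kernel

lemma mu_kill (a : Fin 15) (s : Fin 6) (j k l m : Fin 3) :
    ∑ i, ∑ c, mu a (wt i + (wt j + wt k + wt l + wt m)) c * Az s c i = 0 := by
  obtain ⟨n1, n2, h, e⟩ := wt4 j k l m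
  rw [e]; exact mu_kill0 a s n1 n2 h

lemma mu_cong : ∀ (a : Fin 15) (μ : Fin 6) (ν : Fin 10),
    ((8581 : ℕ) : ℤ) ∣ mu a (code2 (μ.castLE (by norm_num)) + code3 ν) 0 -
      (Xn a μ : ℤ) * (Yn a ν : ℤ) := by decide +kernel

lemma rowsX : rowsOf Xn = Xdata := by decide +kernel
lemma rowsY : rowsOf Yn = Ydata := by decide +kernel
lemma gpX : gp 8581 15 6 Xdata = true := by decide +kernel
lemma gpY : gp 8581 15 10 Ydata = true := by decide +kernel

end Crest.Agent.R345
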