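import Mathlib
import Crest.Prelude.Def_Entanglement

/-! Real Kraus families, flatness (invariance of the Choi matrix under partial transpose),
and the range criterion for separability. -/

set_option autoImplicit false
open Matrix Crest.Quantum
open scoped ComplexOrder Kronecker

namespace Crest.Agent.R345

section
variable {S S' m n m' n' : Type*} [Fintype S] [Fintype S'] [Fintype m] [Fintype n]
  [Fintype m'] [Fintype n']

/-- complexification of a real matrix -/
def cx (A : Matrix m n ℝ) : Matrix m n ℂ := A.map (fun x => (x : ℂ))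

/-- The map with real Kraus operators `K s`. -/
noncomputable def kr (K : S → Matrix m n ℝ) (M : Matrix n n ℂ) : Matrix m m ℂ :=
  Matrix.of fun a b => ∑ s, ∑ i, ∑ j, (K s a i : ℂ) * M i j * (K s b j : ℂ)

omit [Fintype m] in
lemma kr_apply (K : S → Matrix m n ℝ) (M : Matrix n n ℂ) (a b : m) :
    kr K M a b = ∑ s, ∑ i, ∑ j, (K s a i : ℂ) * M i j * (K s b j : ℂ) := rfl

omit [Fintype m] in
lemma kr_eq (K : S → Matrix m n ℝ) (M : Matrix n n ℂ) :
    kr K M = ∑ s, cx (K s) * M * (cx (K s))ᴴ := by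
  ext a b
  simp only [kr_apply, Matrix.sum_apply, Matrix.mul_apply, cx, Matrix.conjTranspose_apply,
    Matrix.map_apply, Finset.sum_mul, RCLike.star_def, Complex.conj_ofReal]
  refine Finset.sum_congr rfl fun s _ => ?_
  rw [Finset.sum_comm]

omit [Fintype m] in
lemma kr_alt (K : S → Matrix m n ℝ) (M : Matrix n n ℂ) (a b : m) :
    kr K M a b = ∑ i, ∑ j, ((∑ s, K s a i * K s b j : ℝ) : ℂ) * M i j := by
  rw [kr_apply, Finset.sum_comm]
  refine Finset.sum_congr rfl fun i _ => ?_
  rw [Finset.sum_comm]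
  refine Finset.sum_congr rfl fun j _ => ?_
  push_cast
  rw [Finset.sum_mul]
  refine Finset.sum_congr rfl fun s _ => ?_
  ring

omit [Fintype m] in
lemma kr_linear (K : S → Matrix m n ℝ) : IsLinearMap ℂ (kr K) := by
  constructor
  · intro M N
    simp only [kr_eq, Matrix.mul_add, Matrix.add_mul, Finset.sum_add_distrib]
  · intro c M
    simp only [kr_eq, Matrix.mul_smul, Matrix.smul_mul, Finset.smul_sum]

lemma kr_cp (K : S → Matrix m n ℝ) : IsCompletelyPositive (kr K) := by
  classical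
  intro k M hM
  have h : blockwise (k := Fin k) (kr K) M =
      ∑ s, ((1 : Matrix (Fin k) (Fin k) ℂ) ⊗ₖ cx (K s)) * M *
        ((1 : Matrix (Fin k) (Fin k) ℂ) ⊗ₖ cx (K s))ᴴ := by
    ext ⟨x, a⟩ ⟨y, b⟩
    simp only [blockwise, block, kr_apply, Matrix.of_apply, Matrix.sum_apply, Matrix.mul_apply,
      Matrix.conjTranspose_apply, Matrix.kroneckerMap_apply, Fintype.sum_prod_type, cx,
      Matrix.map_apply, Matrix.one_apply, ite_mul, one_mul, zero_mul, RCLike.star_def,
      apply_ite (starRingEnd ℂ), map_zero, Complex.conj_ofReal, mul_ite, mul_zero]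
    refine Finset.sum_congr rfl fun s _ => ?_
    simp only [Finset.sum_ite_irrel, Finset.sum_const_zero, Finset.sum_ite_eq, Finset.mem_univ,
      if_true, Finset.sum_mul]
    rw [Finset.sum_comm]
  rw [h]
  exact Matrix.posSemidef_sum _ fun s _ => hM.mul_mul_conjTranspose_same _

/-- The Choi tensor of the family is symmetric under partial transposition. -/
def Flat (K : S → Matrix m n ℝ) : Prop :=
  ∀ a b i j, ∑ s, K s a i * K s b j = ∑ s, K s b i * K s a j

omit [Fintype m] in
lemma Flat.kr_transpose {K : S → Matrix m n ℝ} (h : Flat K) (M : Matrix n n ℂ) :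
    (kr K M)ᵀ = kr K M := by
  ext a b
  rw [Matrix.transpose_apply, kr_alt, kr_alt]
  simp only [h b a]

lemma Flat.isPPT {K : S → Matrix m n ℝ} (h : Flat K) : IsPPT (kr K) := by
  refine ⟨kr_cp K, ?_⟩
  have : (fun M => (kr K M)ᵀ) = kr K := funext h.kr_transpose
  rw [this]
  exact kr_cp K

omit [Fintype m] [Fintype n] in
lemma Flat.transpose {K : S → Matrix m n ℝ} (h : Flat K) : Flat (fun s => (K s)ᵀ) := by
  intro i j a b
  simp only [Matrix.transpose_apply]
  rw [h a b i j]
  exact Finset.sum_congr rfl fun s _ => mul_comm _ _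

omit [Fintype m] [Fintype n] [Fintype m'] [Fintype n'] in
lemma Flat.kron {K : S → Matrix m n ℝ} {L : S' → Matrix m' n' ℝ} (hK : Flat K) (hL : Flat L) :
    Flat (fun st : S × S' => K st.1 ⊗ₖ L st.2) := by
  rintro ⟨a, a'⟩ ⟨b, b'⟩ ⟨i, i'⟩ ⟨j, j'⟩
  simp only [Matrix.kroneckerMap_apply, Fintype.sum_prod_type]
  have e1 : ∀ (a b : m) (a' b' : m'), ∑ s, ∑ t, K s a i * L t a' i' * (K s b j * L t b' j') =
      (∑ s, K s a i * K s b j) * (∑ t, L t a' i' * L t b' j') := by
    intro a b a' b'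
    rw [Finset.sum_mul_sum]
    exact Finset.sum_congr rfl fun s _ => Finset.sum_congr rfl fun t _ => by ring
  rw [e1, e1, hK a b, hL a' b']

omit [Fintype n] [Fintype m'] in
lemma Flat.mul_left {K : S → Matrix m n ℝ} (h : Flat K) (P : Matrix m' m ℝ) :
    Flat (fun s => P * K s) := by
  intro a b i j
  simp only [Matrix.mul_apply]
  have e1 : ∀ (a b : m'), ∑ s, (∑ x, P a x * K s x i) * (∑ y, P b y * K s y j) =
      ∑ x, ∑ y, P a x * P b y * ∑ s, K s x i * K s y j := by
    intro a b
    simp only [Finset.sum_mul_sum]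
    rw [Finset.sum_comm]
    refine Finset.sum_congr rfl fun x _ => ?_
    rw [Finset.sum_comm]
    refine Finset.sum_congr rfl fun y _ => ?_
    rw [Finset.mul_sum]
    exact Finset.sum_congr rfl fun s _ => by ring
  rw [e1, e1, Finset.sum_comm]
  refine Finset.sum_congr rfl fun x _ => Finset.sum_congr rfl fun y _ => ?_
  rw [h y x i j]; ring

omit [Fintype m] [Fintype n'] in
lemma Flat.mul_right {K : S → Matrix m n ℝ} (h : Flat K) (J : Matrix n n' ℝ) :
    Flat (fun s => K s * J) := by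
  have := (h.transpose.mul_left Jᵀ).transpose
  simpa [Matrix.transpose_mul] using this

omit [Fintype m] [Fintype n] in
lemma Flat.smul {K : S → Matrix m n ℝ} (h : Flat K) (c : ℝ) : Flat (fun s => c • K s) := by
  intro a b i j
  simp only [Matrix.smul_apply, smul_eq_mul]
  have e1 : ∀ a b : m, ∑ s, c * K s a i * (c * K s b j) = c * c * ∑ s, K s a i * K s b j := by
    intro a b
    rw [Finset.mul_sum]; exact Finset.sum_congr rfl fun s _ => by ring
  rw [e1, e1, h a b]

omit [Fintype m] [Fintype n] in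
lemma Flat.sumElim {K : S → Matrix m n ℝ} {L : S' → Matrix m n ℝ} (hK : Flat K) (hL : Flat L) :
    Flat (Sum.elim K L) := by
  intro a b i j
  simp only [Fintype.sum_sum_type, Sum.elim_inl, Sum.elim_inr]
  rw [hK a b, hL a b]

omit [Fintype m'] in
lemma kr_comp (L : S' → Matrix m' m ℝ) (K : S → Matrix m n ℝ) :
    kr L ∘ kr K = kr (fun p : S' × S => L p.1 * K p.2) := by
  funext M
  have hc : ∀ (A : Matrix m' m ℝ) (B : Matrix m n ℝ), cx (A * B) = cx A * cx B := by
    intro A B; ext a i; simp [cx, Matrix.mul_apply]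
  simp only [Function.comp, kr_eq, Fintype.sum_prod_type, hc, Matrix.mul_sum, Matrix.sum_mul,
    Matrix.conjTranspose_mul, Matrix.mul_assoc]

lemma kr_tp [DecidableEq n] (K : S → Matrix m n ℝ) (h : ∑ s, (K s)ᵀ * K s = 1) :
    IsTracePreserving (kr K) := by
  intro M
  have h' : ∀ i j, ∑ a, ∑ s, K s a i * K s a j = (1 : Matrix n n ℝ) i j := by
    intro i j
    rw [← h, Finset.sum_comm]
    simp [Matrix.sum_apply, Matrix.mul_apply]
  simp only [Matrix.trace, Matrix.diag, kr_alt]
  rw [Finset.sum_comm]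
  refine Finset.sum_congr rfl fun i _ => ?_
  rw [Finset.sum_comm]
  simp only [← Finset.sum_mul, ← Complex.ofReal_sum, h', Matrix.one_apply]
  simp [apply_ite (fun x : ℝ => (x : ℂ))]

omit [Fintype m] in
lemma choi_kr [DecidableEq n] (K : S → Matrix m n ℝ) (p q : n × m) :
    choiMatrix (kr K) p q = ((∑ s, K s p.2 p.1 * K s q.2 q.1 : ℝ) : ℂ) := by
  simp only [choiMatrix, Matrix.of_apply, kr_alt, Matrix.single_apply]
  rw [Finset.sum_eq_single p.1, Finset.sum_eq_single q.1]
  · simp
  · intro j _ hj; simp [Ne.symm hj]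
  · simp
  · intro i _ hi; simp [Ne.symm hi]
  · simp

/-- `t` annihilates every Kraus operator. -/
def Kills (K : S → Matrix m n ℝ) (t : n → m → ℝ) : Prop :=
  ∀ s, ∑ i, ∑ a, t i a * K s a i = 0

/-- No nonzero product vector is annihilated by all annihilators of the Kraus operators. -/
def NoProd (K : S → Matrix m n ℝ) : Prop :=
  ∀ (u : n → ℂ) (v : m → ℂ),
    (∀ t, Kills K t → ∑ i, ∑ a, (t i a : ℂ) * u i * v a = 0) → u = 0 ∨ v = 0

lemma choi_mulVec_eq_zero [DecidableEq n] {K : S → Matrix m n ℝ} {t : n → m → ℝ}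
    (ht : Kills K t) : (choiMatrix (kr K)).mulVec (fun p => (t p.1 p.2 : ℂ)) = 0 := by
  funext p
  simp only [Matrix.mulVec, dotProduct, choi_kr, Pi.zero_apply, ← Complex.ofReal_mul,
    ← Complex.ofReal_sum, Complex.ofReal_eq_zero, Finset.sum_mul]
  rw [Finset.sum_comm]
  refine Finset.sum_eq_zero fun s _ => ?_
  have := ht s
  rw [← Fintype.sum_prod_type'] at this
  calc ∑ q : n × m, K s p.2 p.1 * K s q.2 q.1 * t q.1 q.2
      = K s p.2 p.1 * ∑ q : n × m, t q.1 q.2 * K s q.2 q.1 := by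
        rw [Finset.mul_sum]; exact Finset.sum_congr rfl fun q _ => by ring
    _ = 0 := by rw [this, mul_zero]

lemma NoProd.range [DecidableEq n] {K : S → Matrix m n ℝ} (h : NoProd K) (u : n → ℂ) (v : m → ℂ)
    (hw : ∃ w, (choiMatrix (kr K)).mulVec w = fun p => u p.1 * v p.2) : u = 0 ∨ v = 0 := by
  obtain ⟨w, hw⟩ := hw
  refine h u v fun t ht => ?_
  have hsym : (choiMatrix (kr K))ᵀ = choiMatrix (kr K) := by
    ext p q
    simp only [Matrix.transpose_apply, choi_kr]
    congr 1
    exact Finset.sum_congr rfl fun s _ => mul_comm _ _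
  have h1 : (fun p : n × m => (t p.1 p.2 : ℂ)) ⬝ᵥ (choiMatrix (kr K)).mulVec w = 0 := by
    rw [Matrix.dotProduct_mulVec, ← hsym, Matrix.vecMul_transpose, choi_mulVec_eq_zero ht,
      zero_dotProduct]
  rw [hw] at h1
  simpa [dotProduct, Fintype.sum_prod_type, mul_assoc] using h1

omit [Fintype S] in
lemma NoProd.sep_zero [DecidableEq n] {K : S → Matrix m n ℝ} (h : NoProd K)
    {C : Matrix (n × m) (n × m) ℂ}
    (hC : ∀ t, Kills K t → C.mulVec (fun p => (t p.1 p.2 : ℂ)) = 0)
    (hsep : Crest.Quantum.IsSeparable C) : C = 0 := by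
  obtain ⟨r, A, B, hA, hB, rfl⟩ := hsep
  refine Finset.sum_eq_zero fun i _ => ?_
  have key : ∀ t, Kills K t → (A i ⊗ₖ B i).mulVec (fun p => (t p.1 p.2 : ℂ)) = 0 := by
    intro t ht
    have h0 := congrArg (fun z => star (fun p : n × m => (t p.1 p.2 : ℂ)) ⬝ᵥ z) (hC t ht)
    simp only [Matrix.sum_mulVec, dotProduct_sum, dotProduct_zero] at h0
    have hnn : ∀ j ∈ (Finset.univ : Finset (Fin r)), 0 ≤ star (fun p : n × m => (t p.1 p.2 : ℂ)) ⬝ᵥ
        (A j ⊗ₖ B j).mulVec (fun p => (t p.1 p.2 : ℂ)) :=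
      fun j _ => ((hA j).kronecker (hB j)).dotProduct_mulVec_nonneg _
    have := (Finset.sum_eq_zero_iff_of_nonneg hnn).1 h0 i (Finset.mem_univ _)
    exact (((hA i).kronecker (hB i)).dotProduct_mulVec_zero_iff _).1 this
  ext ⟨x, y⟩ ⟨x', y'⟩
  have := h (A i x) (B i y) fun t ht => by
    have := congrFun (key t ht) (x, y)
    simp only [Matrix.mulVec, dotProduct, Fintype.sum_prod_type, Matrix.kroneckerMap_apply,
      Pi.zero_apply] at this
    rw [← this]
    exact Finset.sum_congr rfl fun j _ => Finset.sum_congr rfl fun b _ => by ring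
  rcases this with h0 | h0
  · simp [Matrix.kroneckerMap_apply, congrFun h0 x']
  · simp [Matrix.kroneckerMap_apply, congrFun h0 y']

end

/-- An entanglement breaking map has separable compressed Choi matrices. -/
lemma eb_compress {d : Type*} [Fintype d] [DecidableEq d] {k : ℕ}
    {Ψ : Matrix d d ℂ → Matrix d d ℂ} (h : IsEntanglementBreaking Ψ) (ι : Fin k → d) :
    Crest.Quantum.IsSeparable (Matrix.of fun p q : Fin k × Fin k =>
      Ψ (Matrix.single (ι p.1) (ι q.1) 1) (ι p.2) (ι q.2)) := by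
  let Ω : Fin k × d → ℂ := fun p => if ι p.1 = p.2 then 1 else 0
  obtain ⟨r, A, B, hA, hB, hM⟩ := h k (Matrix.vecMulVec Ω (star Ω))
    (Matrix.posSemidef_vecMulVec_self_star Ω)
  refine ⟨r, A, fun i => (B i).submatrix ι ι, hA, fun i => (hB i).submatrix ι, ?_⟩
  ext ⟨x, a⟩ ⟨y, b⟩
  have h1 := congrFun (congrFun hM (x, ι a)) (y, ι b)
  have h2 : block (Matrix.vecMulVec Ω (star Ω)) x y = Matrix.single (ι x) (ι y) 1 := by
    ext i j
    simp only [block, Matrix.of_apply, Matrix.vecMulVec_apply, Ω, Pi.star_apply,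
      Matrix.single_apply]
    by_cases h1 : ι x = i <;> by_cases h2 : ι y = j <;> simp [h1, h2]
  simp only [blockwise, Matrix.of_apply, h2] at h1
  simp only [Matrix.of_apply, h1, Matrix.sum_apply, Matrix.kroneckerMap_apply,
    Matrix.submatrix_apply]

end Crest.Agent.R345
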