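import Crest.Agent.R345.Checks
import Crest.Agent.R345.Kraus

/-! The two PPT maps: `Sym² ℂ³ → Λ² ℂ⁵` and `Λ² ℂ⁵ ≅ (Λ³ ℂ⁵)^* → Sym³ ℂ³`, built from a flat
family of six `5 × 3` matrices. -/

set_option autoImplicit false
open Matrix Crest.Quantum
open scoped Kronecker

namespace Crest.Agent.R345

noncomputable section

def Am (s : Fin 6) : Matrix (Fin 5) (Fin 3) ℝ := Matrix.of fun c i => (Az s c i : ℝ)
def P1 : Matrix (Fin 10) (Fin 5 × Fin 5) ℝ := Matrix.of fun α ab => (P1z α ab.1 ab.2 : ℝ)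
def J2 : Matrix (Fin 3 × Fin 3) (Fin 10) ℝ :=
  Matrix.of fun i μ => if μ = idx2 i.1 i.2 then 1 else 0
def P2 : Matrix ((Fin 5 × Fin 5) × Fin 5) (Fin 10) ℝ :=
  Matrix.of fun c α => (eps (pfst α) (psnd α) c.1.1 c.1.2 c.2 : ℝ)
def J3 : Matrix ((Fin 3 × Fin 3) × Fin 3) (Fin 10) ℝ :=
  Matrix.of fun j ν => if ν = idx3 j.1.1 j.1.2 j.2 then 1 else 0

def K1 (st : Fin 6 × Fin 6) : Matrix (Fin 10) (Fin 10) ℝ := P1 * ((Am st.1 ⊗ₖ Am st.2) * J2)
def K2 (r : (Fin 6 × Fin 6) × Fin 6) : Matrix (Fin 10) (Fin 10) ℝ :=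
  (((Am r.1.1 ⊗ₖ Am r.1.2) ⊗ₖ Am r.2) * J3)ᵀ * P2

lemma flat_Am : Flat Am := by
  intro a b i j
  simp only [Am, Matrix.of_apply]
  exact_mod_cast flatZ a b i j

lemma flat_K1 : Flat K1 := ((flat_Am.kron flat_Am).mul_right J2).mul_left P1

lemma flat_K2 : Flat K2 :=
  ((((flat_Am.kron flat_Am).kron flat_Am).mul_right J3).transpose).mul_right P2

/-- the determinant of five vectors, written with the Levi-Civita symbol -/
def D5 (v1 v2 v3 v4 v5 : Fin 5 → ℝ) : ℝ :=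
  ∑ a, ∑ b, ∑ c, ∑ d, ∑ e, (eps a b c d e : ℝ) * (v1 a * v2 b * v3 c * v4 d * v5 e)

lemma P2_mul_P1 (c : (Fin 5 × Fin 5) × Fin 5) (ab : Fin 5 × Fin 5) :
    (P2 * P1) c ab = (eps ab.1 ab.2 c.1.1 c.1.2 c.2 : ℝ) := by
  simp only [Matrix.mul_apply, P1, P2, Matrix.of_apply]
  exact_mod_cast eps_fact ab.1 ab.2 c.1.1 c.1.2 c.2

/-- columns of the base matrices -/
def col (s : Fin 6) (i : Fin 3) : Fin 5 → ℝ := fun c => (Az s c i : ℝ)

lemma mid_apply (r : (Fin 6 × Fin 6) × Fin 6) (st : Fin 6 × Fin 6)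
    (j : (Fin 3 × Fin 3) × Fin 3) (i : Fin 3 × Fin 3) :
    (((Am r.1.1 ⊗ₖ Am r.1.2) ⊗ₖ Am r.2)ᵀ * (P2 * P1) * (Am st.1 ⊗ₖ Am st.2)) j i =
      D5 (col st.1 i.1) (col st.2 i.2) (col r.1.1 j.1.1) (col r.1.2 j.1.2) (col r.2 j.2) := by
  have hG := P2_mul_P1
  generalize P2 * P1 = G at hG
  simp only [Matrix.mul_apply, hG,
    Fintype.sum_prod_type, Finset.sum_mul, Matrix.transpose_apply, Matrix.kroneckerMap_apply,
    D5, col, Am, Matrix.of_apply]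
  refine Finset.sum_congr rfl fun a _ => Finset.sum_congr rfl fun b _ =>
    Finset.sum_congr rfl fun c _ => Finset.sum_congr rfl fun d _ =>
    Finset.sum_congr rfl fun e _ => by ring

lemma K2K1_eq (r : (Fin 6 × Fin 6) × Fin 6) (st : Fin 6 × Fin 6) :
    K2 r * K1 st = J3ᵀ * ((((Am r.1.1 ⊗ₖ Am r.1.2) ⊗ₖ Am r.2)ᵀ * (P2 * P1) *
      (Am st.1 ⊗ₖ Am st.2)) * J2) := by
  simp only [K1, K2, Matrix.transpose_mul, Matrix.mul_assoc]

lemma swap4 {α β γ δ : Type*} [Fintype α] [Fintype β] [Fintype γ] [Fintype δ]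
    (F : α → β → γ → δ → ℝ) :
    ∑ a, ∑ b, ∑ c, ∑ d, F a b c d = ∑ c, ∑ d, ∑ a, ∑ b, F a b c d := by
  calc ∑ a, ∑ b, ∑ c, ∑ d, F a b c d = ∑ p : α × β, ∑ q : γ × δ, F p.1 p.2 q.1 q.2 := by
        simp only [Fintype.sum_prod_type]
    _ = ∑ q : γ × δ, ∑ p : α × β, F p.1 p.2 q.1 q.2 := Finset.sum_comm
    _ = _ := by simp only [Fintype.sum_prod_type]

lemma pair_K2K1 (r : (Fin 6 × Fin 6) × Fin 6) (st : Fin 6 × Fin 6) (t : Fin 10 → Fin 10 → ℝ) :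
    ∑ μ, ∑ ν, t μ ν * (K2 r * K1 st) ν μ =
      ∑ i1, ∑ i2, ∑ i3, ∑ i4, ∑ i5, t (idx2 i1 i2) (idx3 i3 i4 i5) *
        D5 (col st.1 i1) (col st.2 i2) (col r.1.1 i3) (col r.1.2 i4) (col r.2 i5) := by
  rw [K2K1_eq]
  generalize hM : (((Am r.1.1 ⊗ₖ Am r.1.2) ⊗ₖ Am r.2)ᵀ * (P2 * P1) *
      (Am st.1 ⊗ₖ Am st.2)) = M
  have hM' : ∀ i1 i2 i3 i4 i5, D5 (col st.1 i1) (col st.2 i2) (col r.1.1 i3) (col r.1.2 i4)
      (col r.2 i5) = M ((i3, i4), i5) (i1, i2) := by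
    intro i1 i2 i3 i4 i5
    rw [← hM, mid_apply]
  simp only [hM']
  have e1 : ∀ μ ν, t μ ν * (J3ᵀ * (M * J2)) ν μ =
      ∑ i, ∑ j, (if μ = idx2 i.1 i.2 then (if ν = idx3 j.1.1 j.1.2 j.2 then t μ ν * M j i
        else 0) else 0) := by
    intro μ ν
    rw [Finset.sum_comm]
    simp only [Matrix.mul_apply, Matrix.transpose_apply, J2, J3, Matrix.of_apply, Finset.mul_sum]
    refine Finset.sum_congr rfl fun j _ => Finset.sum_congr rfl fun i _ => ?_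
    split_ifs <;> simp
  simp only [e1]
  have e2 : ∑ μ, ∑ ν, ∑ i : Fin 3 × Fin 3, ∑ j : (Fin 3 × Fin 3) × Fin 3,
      (if μ = idx2 i.1 i.2 then (if ν = idx3 j.1.1 j.1.2 j.2 then t μ ν * M j i
        else 0) else 0) = ∑ i : Fin 3 × Fin 3, ∑ j : (Fin 3 × Fin 3) × Fin 3, ∑ μ, ∑ ν,
      (if μ = idx2 i.1 i.2 then (if ν = idx3 j.1.1 j.1.2 j.2 then t μ ν * M j i
        else 0) else 0) := by
    exact swap4 _
  rw [e2]
  simp only [Finset.sum_ite_irrel, Finset.sum_const_zero, Finset.sum_ite_eq', Finset.mem_univ,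
    if_true, Fintype.sum_prod_type]

lemma D5_schouten (y v1 v2 v3 v4 v5 : Fin 5 → ℝ) :
    y 0 * D5 v1 v2 v3 v4 v5 =
      (∑ a, y a * v1 a) * (∑ b, ∑ c, ∑ d, ∑ e, (eps 0 b c d e : ℝ) * (v2 b * v3 c * v4 d * v5 e)) +
      (∑ b, y b * v2 b) * (∑ a, ∑ c, ∑ d, ∑ e, (eps a 0 c d e : ℝ) * (v1 a * v3 c * v4 d * v5 e)) +
      (∑ c, y c * v3 c) * (∑ a, ∑ b, ∑ d, ∑ e, (eps a b 0 d e : ℝ) * (v1 a * v2 b * v4 d * v5 e)) +
      (∑ d, y d * v4 d) * (∑ a, ∑ b, ∑ c, ∑ e, (eps a b c 0 e : ℝ) * (v1 a * v2 b * v3 c * v5 e)) +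
      (∑ e, y e * v5 e) * (∑ a, ∑ b, ∑ c, ∑ d, (eps a b c d 0 : ℝ) * (v1 a * v2 b * v3 c * v4 d)) := by
  have hd : ∀ x : Fin 5, ∑ f, y f * (dl f x : ℝ) = y x := by
    intro x
    simp [dl, apply_ite (fun z : ℤ => (z : ℝ))]
  have hs : ∀ a b c d e : Fin 5, y 0 * (eps a b c d e : ℝ) =
      y a * eps 0 b c d e + y b * eps a 0 c d e + y c * eps a b 0 d e + y d * eps a b c 0 e +
        y e * eps a b c d 0 := by
    intro a b c d e
    rw [← hd 0, ← hd a, ← hd b, ← hd c, ← hd d, ← hd e]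
    simp only [Finset.sum_mul, ← Finset.sum_add_distrib]
    refine Finset.sum_congr rfl fun f _ => ?_
    have h : (eps a b c d e : ℝ) * dl f 0 =
      eps 0 b c d e * dl f a + eps a 0 c d e * dl f b + eps a b 0 d e * dl f c +
        eps a b c 0 e * dl f d + eps a b c d 0 * dl f e := by exact_mod_cast schouten a b c d e f
    linear_combination (y f) * h
  have e0 : y 0 * D5 v1 v2 v3 v4 v5 = ∑ a, ∑ b, ∑ c, ∑ d, ∑ e,
      ((y a * v1 a) * ((eps 0 b c d e : ℝ) * (v2 b * v3 c * v4 d * v5 e)) +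
       (y b * v2 b) * ((eps a 0 c d e : ℝ) * (v1 a * v3 c * v4 d * v5 e)) +
       (y c * v3 c) * ((eps a b 0 d e : ℝ) * (v1 a * v2 b * v4 d * v5 e)) +
       (y d * v4 d) * ((eps a b c 0 e : ℝ) * (v1 a * v2 b * v3 c * v5 e)) +
       (y e * v5 e) * ((eps a b c d 0 : ℝ) * (v1 a * v2 b * v3 c * v4 d))) := by
    simp only [D5, Finset.mul_sum]
    refine Finset.sum_congr rfl fun a _ => Finset.sum_congr rfl fun b _ =>
      Finset.sum_congr rfl fun c _ => Finset.sum_congr rfl fun d _ =>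
      Finset.sum_congr rfl fun e _ => ?_
    linear_combination (v1 a * v2 b * v3 c * v4 d * v5 e) * hs a b c d e
  rw [e0]
  simp only [Finset.sum_add_distrib, ← Finset.mul_sum, ← Finset.sum_mul]

section zl
variable {I : Type*} [Fintype I]
lemma z2 (F : I → I → ℝ) (h : ∀ b, ∑ a, F a b = 0) : ∑ a, ∑ b, F a b = 0 := by
  rw [Finset.sum_comm]; exact Finset.sum_eq_zero fun b _ => h b
lemma z3 (F : I → I → I → ℝ) (h : ∀ b c, ∑ a, F a b c = 0) : ∑ a, ∑ b, ∑ c, F a b c = 0 := by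
  rw [Finset.sum_comm]; exact Finset.sum_eq_zero fun b _ => z2 _ (h b)
lemma z4 (F : I → I → I → I → ℝ) (h : ∀ b c d, ∑ a, F a b c d = 0) :
    ∑ a, ∑ b, ∑ c, ∑ d, F a b c d = 0 := by
  rw [Finset.sum_comm]; exact Finset.sum_eq_zero fun b _ => z3 _ (h b)
lemma z5 (F : I → I → I → I → I → ℝ) (h : ∀ b c d e, ∑ a, F a b c d e = 0) :
    ∑ a, ∑ b, ∑ c, ∑ d, ∑ e, F a b c d e = 0 := by
  rw [Finset.sum_comm]; exact Finset.sum_eq_zero fun b _ => z4 _ (h b)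
end zl

lemma mu_killR (a : Fin 15) (s : Fin 6) (j k l m : Fin 3) (f : Fin 3 → ℕ)
    (hf : ∀ i, f i = wt i + (wt j + wt k + wt l + wt m)) :
    ∑ i, ∑ c, (mu a (f i) c : ℝ) * col s i c = 0 := by
  simp only [hf, col]
  exact_mod_cast mu_kill a s j k l m

lemma sum5_split {I : Type*} [Fintype I] (T1 T2 T3 T4 T5 : I → I → I → I → I → ℝ)
    (h1 : ∀ b c d e, ∑ a, T1 a b c d e = 0) (h2 : ∀ a c d e, ∑ b, T2 a b c d e = 0)
    (h3 : ∀ a b d e, ∑ c, T3 a b c d e = 0) (h4 : ∀ a b c e, ∑ d, T4 a b c d e = 0)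
    (h5 : ∀ a b c d, ∑ e, T5 a b c d e = 0) :
    ∑ a, ∑ b, ∑ c, ∑ d, ∑ e,
      (T1 a b c d e + T2 a b c d e + T3 a b c d e + T4 a b c d e + T5 a b c d e) = 0 := by
  have g1 := z5 T1 h1
  have g2 := fun a => z4 (T2 a) (h2 a)
  have g3 := fun a b => z3 (T3 a b) (h3 a b)
  have g4 := fun a b c => z2 (T4 a b c) (h4 a b c)
  simp only [Finset.sum_add_distrib, g1, g2, g3, g4, h5, add_zero]

lemma kills_mu (a : Fin 15) :
    Kills (fun p : ((Fin 6 × Fin 6) × Fin 6) × (Fin 6 × Fin 6) => K2 p.1 * K1 p.2)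
      (fun μ ν => (mu a (code2 μ + code3 ν) 0 : ℝ)) := by
  rintro ⟨r, st⟩
  rw [pair_K2K1]
  simp only [code2_idx2, code3_idx3]
  have hs := fun (n : ℕ) (v1 v2 v3 v4 v5 : Fin 5 → ℝ) =>
    D5_schouten (fun c => (mu a n c : ℝ)) v1 v2 v3 v4 v5
  beta_reduce at hs
  rw [Finset.sum_congr rfl fun i1 _ => Finset.sum_congr rfl fun i2 _ =>
    Finset.sum_congr rfl fun i3 _ => Finset.sum_congr rfl fun i4 _ =>
    Finset.sum_congr rfl fun i5 _ => hs _ _ _ _ _ _]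
  refine sum5_split _ _ _ _ _ ?_ ?_ ?_ ?_ ?_
  · intro i2 i3 i4 i5
    rw [← Finset.sum_mul, mu_killR a st.1 i2 i3 i4 i5 _ (fun i => by ring), zero_mul]
  · intro i1 i3 i4 i5
    rw [← Finset.sum_mul, mu_killR a st.2 i1 i3 i4 i5 _ (fun i => by ring), zero_mul]
  · intro i1 i2 i4 i5
    rw [← Finset.sum_mul, mu_killR a r.1.1 i1 i2 i4 i5 _ (fun i => by ring), zero_mul]
  · intro i1 i2 i3 i5
    rw [← Finset.sum_mul, mu_killR a r.1.2 i1 i2 i3 i5 _ (fun i => by ring), zero_mul]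
  · intro i1 i2 i3 i4
    rw [← Finset.sum_mul, mu_killR a r.2 i1 i2 i3 i4 _ (fun i => by ring), zero_mul]

lemma kills_pad (μ0 ν0 : Fin 10) (h : 6 ≤ (μ0 : ℕ)) :
    Kills (fun p : ((Fin 6 × Fin 6) × Fin 6) × (Fin 6 × Fin 6) => K2 p.1 * K1 p.2)
      (fun μ ν => if μ = μ0 then (if ν = ν0 then 1 else 0) else 0) := by
  rintro ⟨r, st⟩
  rw [pair_K2K1]
  have : ∀ i j, idx2 i j ≠ μ0 := by
    intro i j e
    have := idx2_lt i j
    rw [e] at this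
    omega
  simp [this]

theorem noProd :
    NoProd (fun p : ((Fin 6 × Fin 6) × Fin 6) × (Fin 6 × Fin 6) => K2 p.1 * K1 p.2) := by
  intro u v h
  by_cases hv : v = 0
  · exact Or.inr hv
  left
  obtain ⟨ν0, hν0⟩ := Function.ne_iff.1 hv
  have hpad : ∀ μ0 : Fin 10, 6 ≤ (μ0 : ℕ) → u μ0 = 0 := by
    intro μ0 h6
    have := h _ (kills_pad μ0 ν0 h6)
    simp only [apply_ite (fun x : ℝ => (x : ℂ)), Complex.ofReal_one, Complex.ofReal_zero, ite_mul,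
      one_mul, zero_mul, Finset.sum_ite_irrel, Finset.sum_const_zero, Finset.sum_ite_eq',
      Finset.mem_univ, if_true] at this
    exact (mul_eq_zero.1 this).resolve_right hν0
  have hk := bilinear_key (p := 8581) (by norm_num) Xn Yn (by rw [rowsX]; exact gpX)
    (by rw [rowsY]; exact gpY) (by norm_num)
    (fun a μ ν => mu a (code2 (μ.castLE (by norm_num)) + code3 ν) 0) mu_cong
    (fun μ => u (μ.castLE (by norm_num))) v (by
      intro a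
      have := h _ (kills_mu a)
      rw [Fin.sum_univ_add (a := 6) (b := 4)] at this
      have h0 : ∀ μ : Fin 4, u (Fin.natAdd 6 μ) = 0 := fun μ => hpad _ (by simp)
      simp only [h0, mul_zero, zero_mul, Finset.sum_const_zero, add_zero] at this
      simpa [Fin.castAdd] using this)
  have hu := hk.resolve_right hv
  funext μ
  by_cases h6 : 6 ≤ (μ : ℕ)
  · exact hpad μ h6
  · exact congrFun hu ⟨μ, by omega⟩

lemma nzZ : (∑ i1 : Fin 3, ∑ i2 : Fin 3, ∑ i3 : Fin 3, ∑ i4 : Fin 3, ∑ i5 : Fin 3,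
    if idx2 i1 i2 = 3 ∧ idx3 i3 i4 i5 = 7 then
      ∑ a, ∑ b, ∑ c, ∑ d, ∑ e, eps a b c d e *
        (Az 0 a i1 * Az 1 b i2 * Az 2 c i3 * Az 3 d i4 * Az 4 e i5) else 0) ≠ 0 := by
  decide +kernel

lemma kraus_eq_zero_of_choi {S m n : Type*} [Fintype S] [Fintype n] [DecidableEq n]
    (K : S → Matrix m n ℝ) (h : choiMatrix (kr K) = 0) (s : S) (a : m) (i : n) : K s a i = 0 := by
  have h1 := congrFun (congrFun h (i, a)) (i, a)
  rw [choi_kr] at h1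
  simp only [Matrix.zero_apply, Complex.ofReal_eq_zero] at h1
  have := (Finset.sum_eq_zero_iff_of_nonneg (fun s _ => mul_self_nonneg _)).1 h1 s
    (Finset.mem_univ _)
  exact mul_self_eq_zero.1 this

theorem choi_ne_zero : choiMatrix
    (kr (fun p : ((Fin 6 × Fin 6) × Fin 6) × (Fin 6 × Fin 6) => K2 p.1 * K1 p.2)) ≠ 0 := by
  intro h
  have h0 : ∀ (r : (Fin 6 × Fin 6) × Fin 6) (st : Fin 6 × Fin 6) (μ ν : Fin 10),
      (K2 r * K1 st) ν μ = 0 := by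
    intro r st μ ν
    exact kraus_eq_zero_of_choi _ h (r, st) ν μ
  have h2 := pair_K2K1 ((2, 3), 4) (0, 1) (fun μ ν => if μ = 3 ∧ ν = 7 then 1 else 0)
  simp only [h0, mul_zero, Finset.sum_const_zero, ite_mul, one_mul, zero_mul, D5, col] at h2
  apply nzZ
  apply Int.cast_injective (α := ℝ)
  simp only [Int.cast_sum, Int.cast_ite, Int.cast_mul, Int.cast_zero]
  exact h2.symm

end

end Crest.Agent.R345
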